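import Vale.Agent.P181.D.Env
import Vale.Agent.P181.S.CFast
import Vale.Agent.P181.D.Cs3

set_option maxRecDepth 100000

namespace Vale.Agent.P181.S

theorem cv3p0 : allRF (cov4F E0 Cs3 3 0) 0 7 = true := by decide +kernel

end Vale.Agent.P181.S
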