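import Vale.Agent.P181.D.HiD0
import Vale.Agent.P181.D.HiD1

namespace Vale.Agent.P181.S

noncomputable def HiT : List Tb := [Hi0, Hi1, Hi2, Hi3, Hi4, Hi5, Hi6, Hi7, Hi8, Hi9, Hi10, Hi11, Hi12, Hi13, Hi14, Hi15, Hi16, Hi17, Hi18, Hi19, Hi20, Hi21, Hi22, Hi23, Hi24]

def HiB : List Nat := [0, 1, 1, 2, 3, 5, 7, 11, 14, 17, 20, 22, 25, 27, 29, 30, 30, 29, 29, 29, 28, 30, 31, 29, 30]

end Vale.Agent.P181.S
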