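import Vale.Agent.P181.D.Lx10vD0

namespace Vale.Agent.P181.S

noncomputable def Lx10vT : List Tb := [Lx10v0, Lx10v1, Lx10v2, Lx10v3, Lx10v4, Lx10v5, Lx10v6]

def Lx10vB : List Nat := [0, 1, 1, 2, 4, 8, 13]

end Vale.Agent.P181.S
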