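import Vale.Agent.P181.D.Lx11vD0

namespace Vale.Agent.P181.S

noncomputable def Lx11vT : List Tb := [Lx11v0, Lx11v1, Lx11v2, Lx11v3, Lx11v4, Lx11v5, Lx11v6]

def Lx11vB : List Nat := [0, 1, 1, 2, 5, 9, 13]

end Vale.Agent.P181.S
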