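import Vale.Agent.P181.D.Lx12vD0

namespace Vale.Agent.P181.S

noncomputable def Lx12vT : List Tb := [Lx12v0, Lx12v1, Lx12v2, Lx12v3, Lx12v4, Lx12v5, Lx12v6]

def Lx12vB : List Nat := [0, 1, 1, 2, 5, 9, 14]

end Vale.Agent.P181.S
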