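import Vale.Agent.P181.D.Lx13vD0

namespace Vale.Agent.P181.S

noncomputable def Lx13vT : List Tb := [Lx13v0, Lx13v1, Lx13v2, Lx13v3, Lx13v4, Lx13v5, Lx13v6]

def Lx13vB : List Nat := [0, 1, 1, 2, 5, 10, 15]

end Vale.Agent.P181.S
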