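import Vale.Agent.P181.D.Lx14vD0

namespace Vale.Agent.P181.S

noncomputable def Lx14vT : List Tb := [Lx14v0, Lx14v1, Lx14v2, Lx14v3, Lx14v4, Lx14v5, Lx14v6]

def Lx14vB : List Nat := [0, 1, 1, 2, 5, 10, 15]

end Vale.Agent.P181.S
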