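import Vale.Agent.P181.D.Lx15vD0

namespace Vale.Agent.P181.S

noncomputable def Lx15vT : List Tb := [Lx15v0, Lx15v1, Lx15v2, Lx15v3, Lx15v4, Lx15v5, Lx15v6]

def Lx15vB : List Nat := [0, 1, 1, 2, 6, 11, 16]

end Vale.Agent.P181.S
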