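import Vale.Agent.P181.D.Lx16vD0

namespace Vale.Agent.P181.S

noncomputable def Lx16vT : List Tb := [Lx16v0, Lx16v1, Lx16v2, Lx16v3, Lx16v4, Lx16v5, Lx16v6]

def Lx16vB : List Nat := [0, 1, 1, 2, 6, 11, 16]

end Vale.Agent.P181.S
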