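import Vale.Agent.P181.D.Lx17vD0

namespace Vale.Agent.P181.S

noncomputable def Lx17vT : List Tb := [Lx17v0, Lx17v1, Lx17v2, Lx17v3, Lx17v4, Lx17v5, Lx17v6]

def Lx17vB : List Nat := [0, 1, 1, 2, 6, 12, 17]

end Vale.Agent.P181.S
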