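import Vale.Agent.P181.D.Lx18vD0

namespace Vale.Agent.P181.S

noncomputable def Lx18vT : List Tb := [Lx18v0, Lx18v1, Lx18v2, Lx18v3, Lx18v4, Lx18v5, Lx18v6]

def Lx18vB : List Nat := [0, 1, 1, 3, 6, 12, 17]

end Vale.Agent.P181.S
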