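import Vale.Agent.P181.D.Lx20vD0

namespace Vale.Agent.P181.S

noncomputable def Lx20vT : List Tb := [Lx20v0, Lx20v1, Lx20v2, Lx20v3, Lx20v4, Lx20v5, Lx20v6]

def Lx20vB : List Nat := [0, 1, 1, 3, 7, 12, 18]

end Vale.Agent.P181.S
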