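import Vale.Agent.P181.D.Lx21vD0

namespace Vale.Agent.P181.S

noncomputable def Lx21vT : List Tb := [Lx21v0, Lx21v1, Lx21v2, Lx21v3, Lx21v4, Lx21v5, Lx21v6]

def Lx21vB : List Nat := [0, 1, 1, 3, 7, 12, 17]

end Vale.Agent.P181.S
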