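import Vale.Agent.P181.D.Lx22vD0

namespace Vale.Agent.P181.S

noncomputable def Lx22vT : List Tb := [Lx22v0, Lx22v1, Lx22v2, Lx22v3, Lx22v4, Lx22v5, Lx22v6]

def Lx22vB : List Nat := [0, 1, 1, 3, 7, 13, 18]

end Vale.Agent.P181.S
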