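import Vale.Agent.P181.D.Lx23vD0

namespace Vale.Agent.P181.S

noncomputable def Lx23vT : List Tb := [Lx23v0, Lx23v1, Lx23v2, Lx23v3, Lx23v4, Lx23v5, Lx23v6]

def Lx23vB : List Nat := [0, 1, 1, 3, 7, 13, 18]

end Vale.Agent.P181.S
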