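import Vale.Agent.P181.D.Lx24vD0

namespace Vale.Agent.P181.S

noncomputable def Lx24vT : List Tb := [Lx24v0, Lx24v1, Lx24v2, Lx24v3, Lx24v4, Lx24v5, Lx24v6]

def Lx24vB : List Nat := [0, 1, 1, 3, 7, 13, 18]

end Vale.Agent.P181.S
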