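import Vale.Agent.P181.D.Lx7vD0

namespace Vale.Agent.P181.S

noncomputable def Lx7vT : List Tb := [Lx7v0, Lx7v1, Lx7v2, Lx7v3, Lx7v4, Lx7v5, Lx7v6]

def Lx7vB : List Nat := [0, 1, 1, 2, 3, 6, 9]

end Vale.Agent.P181.S
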