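import Vale.Agent.P181.D.Lx8vD0

namespace Vale.Agent.P181.S

noncomputable def Lx8vT : List Tb := [Lx8v0, Lx8v1, Lx8v2, Lx8v3, Lx8v4, Lx8v5, Lx8v6]

def Lx8vB : List Nat := [0, 1, 1, 2, 4, 6, 10]

end Vale.Agent.P181.S
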