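import Vale.Agent.P181.D.Lx9vD0

namespace Vale.Agent.P181.S

noncomputable def Lx9vT : List Tb := [Lx9v0, Lx9v1, Lx9v2, Lx9v3, Lx9v4, Lx9v5, Lx9v6]

def Lx9vB : List Nat := [0, 1, 1, 2, 4, 7, 12]

end Vale.Agent.P181.S
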