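import Vale.Agent.P181.D.LoT
import Vale.Agent.P181.D.HiT
import Vale.Agent.P181.D.Lx7vT
import Vale.Agent.P181.D.Lx8vT
import Vale.Agent.P181.D.Lx9vT
import Vale.Agent.P181.D.Lx10vT
import Vale.Agent.P181.D.Lx11vT
import Vale.Agent.P181.D.Lx12vT
import Vale.Agent.P181.D.Lx13vT
import Vale.Agent.P181.D.Lx14vT
import Vale.Agent.P181.D.Lx15vT
import Vale.Agent.P181.D.Lx16vT
import Vale.Agent.P181.D.Lx17vT
import Vale.Agent.P181.D.Lx18vT
import Vale.Agent.P181.D.Lx19vT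
import Vale.Agent.P181.D.Lx20vT
import Vale.Agent.P181.D.Lx21vT
import Vale.Agent.P181.D.Lx22vT
import Vale.Agent.P181.D.Lx23vT
import Vale.Agent.P181.D.Lx24vT
import Vale.Agent.P181.S.Phi0

namespace Vale.Agent.P181.S

noncomputable def LxT : List (List Tb) := [Lx7vT, Lx8vT, Lx9vT, Lx10vT, Lx11vT, Lx12vT, Lx13vT, Lx14vT, Lx15vT, Lx16vT, Lx17vT, Lx18vT, Lx19vT, Lx20vT, Lx21vT, Lx22vT, Lx23vT, Lx24vT]

noncomputable def E0 : Env := Env.mk LoT HiT LxT FT0 44 44 32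

theorem pos0 : pos E0 256 = true := by decide +kernel

end Vale.Agent.P181.S
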