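import Vale.Agent.P181.D.HiT
import Vale.Agent.P181.S.CFast

set_option maxRecDepth 100000

namespace Vale.Agent.P181.S

theorem Hic1u0 : chkRF HiT 44 157 6 1 1 0 512 = true := by decide +kernel

theorem Hic2u0 : chkRF HiT 44 157 6 1 2 0 512 = true := by decide +kernel

theorem Hic3u0 : chkRF HiT 44 157 6 2 3 0 512 = true := by decide +kernel

theorem Hic4u0 : chkRF HiT 44 157 6 3 4 0 512 = true := by decide +kernel

theorem Hic5u0 : chkRF HiT 44 157 6 5 5 0 512 = true := by decide +kernel

theorem Hic6u0 : chkRF HiT 44 157 6 7 6 0 512 = true := by decide +kernel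

end Vale.Agent.P181.S
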