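import Vale.Agent.P181.D.HiT
import Vale.Agent.P181.S.CFast

set_option maxRecDepth 100000

namespace Vale.Agent.P181.S

theorem Hic7u0 : chkRF HiT 44 157 6 11 7 0 512 = true := by decide +kernel

theorem Hic8u0 : chkRF HiT 44 157 6 14 8 0 512 = true := by decide +kernel

theorem Hic9u0 : chkRF HiT 44 157 6 17 9 0 512 = true := by decide +kernel

theorem Hic10u0 : chkRF HiT 44 157 6 20 10 0 512 = true := by decide +kernel

end Vale.Agent.P181.S
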