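import Vale.Agent.P181.D.HiT
import Vale.Agent.P181.S.CFast

set_option maxRecDepth 100000

namespace Vale.Agent.P181.S

theorem Hic11u0 : chkRF HiT 44 157 6 22 11 0 512 = true := by decide +kernel

theorem Hic12u0 : chkRF HiT 44 157 6 25 12 0 512 = true := by decide +kernel

theorem Hic13u0 : chkRF HiT 44 157 6 27 13 0 512 = true := by decide +kernel

end Vale.Agent.P181.S
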