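import Vale.Agent.P181.D.HiT
import Vale.Agent.P181.S.CFast

set_option maxRecDepth 100000

namespace Vale.Agent.P181.S

theorem Hic14u0 : chkRF HiT 44 157 6 29 14 0 512 = true := by decide +kernel

theorem Hic15u0 : chkRF HiT 44 157 6 30 15 0 512 = true := by decide +kernel

theorem Hic16u0 : chkRF HiT 44 157 6 30 16 0 512 = true := by decide +kernel

theorem Hic17u0 : chkRF HiT 44 157 6 29 17 0 512 = true := by decide +kernel

theorem Hic18u0 : chkRF HiT 44 157 6 29 18 0 512 = true := by decide +kernel

theorem Hic19u0 : chkRF HiT 44 157 6 29 19 0 512 = true := by decide +kernel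

end Vale.Agent.P181.S
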