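import Vale.Agent.P181.D.HiT
import Vale.Agent.P181.S.CFast

set_option maxRecDepth 100000

namespace Vale.Agent.P181.S

theorem Hic20u0 : chkRF HiT 44 157 6 28 20 0 512 = true := by decide +kernel

theorem Hic21u0 : chkRF HiT 44 157 6 30 21 0 512 = true := by decide +kernel

theorem Hic22u0 : chkRF HiT 44 157 6 31 22 0 512 = true := by decide +kernel

theorem Hic23u0 : chkRF HiT 44 157 6 29 23 0 512 = true := by decide +kernel

theorem Hic24u0 : chkRF HiT 44 157 6 30 24 0 512 = true := by decide +kernel

end Vale.Agent.P181.S
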