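import Vale.Agent.P181.D.LoT
import Vale.Agent.P181.S.CFast

set_option maxRecDepth 100000

namespace Vale.Agent.P181.S

theorem Loc11u132 : chkRF LoT 44 91 6 27 11 132 65 = true := by decide +kernel

end Vale.Agent.P181.S
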