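import Vale.Agent.P181.D.LoD0
import Vale.Agent.P181.D.LoD1
import Vale.Agent.P181.D.LoD2
import Vale.Agent.P181.D.LoD3
import Vale.Agent.P181.D.LoD4
import Vale.Agent.P181.D.LoD5
import Vale.Agent.P181.D.LoD6
import Vale.Agent.P181.D.LoD7

namespace Vale.Agent.P181.S

noncomputable def LoT : List Tb := [Lo0, Lo1, Lo2, Lo3, Lo4, Lo5, Lo6, Lo7, Lo8, Lo9, Lo10, Lo11, Lo12, Lo13]

def LoB : List Nat := [0, 1, 1, 2, 3, 5, 7, 11, 14, 18, 22, 27, 31, 35]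

end Vale.Agent.P181.S
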