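import Vale.Agent.P181.D.Lx19vD0

namespace Vale.Agent.P181.S

noncomputable def Lx19vT : List Tb := [Lx19v0, Lx19v1, Lx19v2, Lx19v3, Lx19v4, Lx19v5, Lx19v6]

def Lx19vB : List Nat := [0, 1, 1, 3, 7, 12, 17]

end Vale.Agent.P181.S
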