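import Vale.Agent.P181.D.Lx8vT
import Vale.Agent.P181.S.CFast

set_option maxRecDepth 100000

namespace Vale.Agent.P181.S

theorem Lx8vc1u0 : chkRF Lx8vT 32 61 8 1 1 0 512 = true := by decide +kernel

theorem Lx8vc2u0 : chkRF Lx8vT 32 61 8 1 2 0 512 = true := by decide +kernel

theorem Lx8vc3u0 : chkRF Lx8vT 32 61 8 2 3 0 512 = true := by decide +kernel

theorem Lx8vc4u0 : chkRF Lx8vT 32 61 8 4 4 0 512 = true := by decide +kernel

theorem Lx8vc5u0 : chkRF Lx8vT 32 61 8 6 5 0 512 = true := by decide +kernel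

theorem Lx8vc6u0 : chkRF Lx8vT 32 61 8 10 6 0 512 = true := by decide +kernel

end Vale.Agent.P181.S
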